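import Mathlib
import Vale.Agent.Lib.P038.K4

/-! P038: second neighbourhoods in oriented graphs whose underlying graph has no `K_4`. -/

namespace Vale.Agent.Results.P038.K4Free

open Vale.Agent.P038

/-- Every nonempty finite oriented graph whose underlying graph contains no complete graph on
four vertices has a vertex whose second out-neighbourhood has at least `0.79` times the size of
its first out-neighbourhood. -/
theorem result {V : Type} [Fintype V] [Nonempty V] (r : V → V → Prop) [DecidableRel r]
    (hor : ∀ a b : V, r a b → ¬ r b a)
    (hK : ∀ a b c d : V, Adj r a b → Adj r a c → Adj r a d → Adj r b c → Adj r b d →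
      Adj r c d → False) :
    ∃ v : V, (79 / 100 : ℝ) * (N1 r v).card ≤ (N2 r v).card := by
  classical
  exact main r hor hK

end Vale.Agent.Results.P038.K4Free
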