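import Mathlib
import Vale.Agent.Lib.P038.K4c
import Vale.Agent.Lib.P038.Small

/-! P038: second neighbourhoods in oriented graphs whose underlying graph has no `K_4`:
the conjecture for minimum outdegree at most 8, and the ratio 17/20 in general. -/

namespace Vale.Agent.Results.P038.K4FreeExact

open Vale.Agent.P038

/-- Let `r` be the arc relation of a finite oriented graph whose underlying graph contains no
complete graph on four vertices. If some vertex has outdegree at most `8` then some vertex `v`
has `|N1 v| ≤ |N2 v|`; and if there is at least one vertex then some vertex `v` has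
`0.85 * |N1 v| ≤ |N2 v|`. -/
theorem result {V : Type} [Fintype V] (r : V → V → Prop) [DecidableRel r]
    (hor : ∀ a b : V, r a b → ¬ r b a)
    (hK : ∀ a b c d : V, Adj r a b → Adj r a c → Adj r a d → Adj r b c → Adj r b d →
      Adj r c d → False) :
    ((∃ v : V, (N1 r v).card ≤ 8) → ∃ v : V, (N1 r v).card ≤ (N2 r v).card) ∧
      (Nonempty V → ∃ v : V, (17 / 20 : ℝ) * (N1 r v).card ≤ (N2 r v).card) := by
  classical
  exact ⟨fun h => main3 r hor hK h, fun _ => main2 r hor hK⟩

end Vale.Agent.Results.P038.K4FreeExact
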